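import Mathlib

/-! Determinacy of measures by their moments: an `L²` function orthogonal to all polynomials for a
measure with exponential moments vanishes almost everywhere. -/

open MeasureTheory Set Filter Topology
open scoped ENNReal NNReal

namespace Vale.Agent.P218.H787

variable {E : Type*} [NormedAddCommGroup E] [InnerProductSpace ℝ E] [FiniteDimensional ℝ E]
  [MeasurableSpace E] [BorelSpace E]

/-- a square integrable function is integrable against exponentials -/
lemma int_mul_exp {μ : Measure E}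
    (hexp : ∀ c : ℝ, Integrable (fun x : E => Real.exp (c * ‖x‖)) μ) {u : E → ℝ}
    (hu : MemLp u 2 μ) (c : ℝ) : Integrable (fun x => u x * Real.exp (c * ‖x‖)) μ := by
  have hm : AEStronglyMeasurable (fun x : E => Real.exp (c * ‖x‖)) μ :=
    (by fun_prop : Continuous fun x : E => Real.exp (c * ‖x‖)).aestronglyMeasurable
  have h2 : MemLp (fun x : E => Real.exp (c * ‖x‖)) 2 μ := by
    rw [memLp_two_iff_integrable_sq hm]
    refine (hexp (2 * c)).congr (Eventually.of_forall fun x => ?_)
    simp only
    rw [← Real.exp_nat_mul]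
    congr 1
    push_cast
    ring
  exact hu.integrable_mul h2

/-- the Fourier transform of `u μ` vanishes when all the moments of `u μ` vanish -/
lemma integral_exp_eq_zero {μ : Measure E}
    (hexp : ∀ c : ℝ, Integrable (fun x : E => Real.exp (c * ‖x‖)) μ) {u : E → ℝ}
    (hu : MemLp u 2 μ) (ξ : E)
    (hmom : ∀ n : ℕ, ∫ x, u x * (inner ℝ x ξ) ^ n ∂μ = 0) :
    ∫ x, (u x : ℂ) * Complex.exp ((inner ℝ x ξ : ℝ) * Complex.I) ∂μ = 0 := by
  set F : ℕ → E → ℂ := fun n x =>
    (u x : ℂ) * ((((inner ℝ x ξ : ℝ) : ℂ) * Complex.I) ^ n / (n.factorial : ℂ)) with hF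
  have hmeas : ∀ n, AEStronglyMeasurable (F n) μ := by
    intro n
    have h1 : AEStronglyMeasurable (fun x => (u x : ℂ)) μ :=
      Complex.continuous_ofReal.comp_aestronglyMeasurable hu.1
    refine h1.mul ?_
    exact (by fun_prop : Continuous fun x : E =>
      ((((inner ℝ x ξ : ℝ) : ℂ) * Complex.I) ^ n / (n.factorial : ℂ))).aestronglyMeasurable
  have key : HasSum (fun n => ∫ x, F n x ∂μ)
      (∫ x, (u x : ℂ) * Complex.exp ((inner ℝ x ξ : ℝ) * Complex.I) ∂μ) := by
    refine hasSum_integral_of_dominated_convergence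
      (fun n x => |u x| * ((‖ξ‖ * ‖x‖) ^ n / n.factorial)) hmeas ?_ ?_ ?_ ?_
    · intro n
      refine Eventually.of_forall fun x => ?_
      simp only [hF, norm_mul, norm_div, norm_pow, Complex.norm_real, Complex.norm_I, mul_one,
        Complex.norm_natCast, Real.norm_eq_abs]
      have h1 : |inner ℝ x ξ| ≤ ‖ξ‖ * ‖x‖ := by
        have := abs_real_inner_le_norm x ξ
        linarith [mul_comm ‖ξ‖ ‖x‖]
      gcongr
    · refine Eventually.of_forall fun x => ?_
      exact (Real.summable_pow_div_factorial (‖ξ‖ * ‖x‖)).mul_left _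
    · have h1 := int_mul_exp hexp hu.abs ‖ξ‖
      refine h1.congr (Eventually.of_forall fun x => ?_)
      simp only
      rw [tsum_mul_left]
      congr 1
      rw [Real.exp_eq_exp_ℝ, NormedSpace.exp_eq_tsum_div]
    · refine Eventually.of_forall fun x => ?_
      refine HasSum.mul_left _ ?_
      rw [Complex.exp_eq_exp_ℂ]
      exact NormedSpace.expSeries_div_hasSum_exp (𝔸 := ℂ) _
  have hz : ∀ n, ∫ x, F n x ∂μ = 0 := by
    intro n
    have h1 : ∀ x, F n x = (((u x * (inner ℝ x ξ) ^ n : ℝ)) : ℂ) * (Complex.I ^ n / (n.factorial : ℂ)) := by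
      intro x
      simp only [hF]
      push_cast
      ring
    simp_rw [h1]
    rw [integral_mul_const]
    have h2 : ∫ x, (((u x * (inner ℝ x ξ) ^ n : ℝ)) : ℂ) ∂μ = ((∫ x, u x * (inner ℝ x ξ) ^ n ∂μ : ℝ) : ℂ) :=
      integral_ofReal
    rw [h2, hmom n]
    simp
  have h0 : HasSum (fun n : ℕ => ∫ x, F n x ∂μ) 0 := by
    simp_rw [hz]
    exact hasSum_zero
  exact key.unique h0

/-- an `L²` function all of whose moments vanish is zero almost everywhere -/
theorem ae_zero_of_moments {μ : Measure E}
    (hexp : ∀ c : ℝ, Integrable (fun x : E => Real.exp (c * ‖x‖)) μ) {u : E → ℝ}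
    (hu : MemLp u 2 μ)
    (hmom : ∀ (ξ : E) (n : ℕ), ∫ x, u x * (inner ℝ x ξ) ^ n ∂μ = 0) : u =ᵐ[μ] 0 := by
  have hui : Integrable u μ := by
    have := int_mul_exp hexp hu 0
    simpa using this
  set p : E → ℝ≥0∞ := fun x => ENNReal.ofReal (u x) with hp
  set q : E → ℝ≥0∞ := fun x => ENNReal.ofReal (-u x) with hq
  have hpm : AEMeasurable p μ := hui.1.aemeasurable.ennreal_ofReal
  have hqm : AEMeasurable q μ := hui.1.aemeasurable.neg.ennreal_ofReal
  have hpf : ∫⁻ x, p x ∂μ ≠ ∞ := by
    exact ((lintegral_mono fun x => Real.ofReal_le_enorm (u x)).trans_lt hui.2).ne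
  have hqf : ∫⁻ x, q x ∂μ ≠ ∞ := by
    refine ((lintegral_mono fun x => ?_).trans_lt hui.2).ne
    have := Real.ofReal_le_enorm (-u x)
    simpa using this
  have : IsFiniteMeasure (μ.withDensity p) := isFiniteMeasure_withDensity hpf
  have : IsFiniteMeasure (μ.withDensity q) := isFiniteMeasure_withDensity hqf
  have hpq : μ.withDensity p = μ.withDensity q := by
    refine Measure.ext_of_charFun ?_
    funext ξ
    rw [charFun_apply, charFun_apply]
    have e1 : ∫ x, Complex.exp (((inner ℝ x ξ : ℝ) : ℂ) * Complex.I) ∂(μ.withDensity p)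
        = ∫ x, (p x).toReal • Complex.exp (((inner ℝ x ξ : ℝ) : ℂ) * Complex.I) ∂μ := by
      rw [integral_withDensity_eq_integral_toReal_smul₀ hpm]
      exact Eventually.of_forall fun x => ENNReal.ofReal_lt_top
    have e2 : ∫ x, Complex.exp (((inner ℝ x ξ : ℝ) : ℂ) * Complex.I) ∂(μ.withDensity q)
        = ∫ x, (q x).toReal • Complex.exp (((inner ℝ x ξ : ℝ) : ℂ) * Complex.I) ∂μ := by
      rw [integral_withDensity_eq_integral_toReal_smul₀ hqm]
      exact Eventually.of_forall fun x => ENNReal.ofReal_lt_top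
    rw [e1, e2]
    have hb : ∀ f : E → ℝ, Integrable f μ →
        Integrable (fun x => f x • Complex.exp (((inner ℝ x ξ : ℝ) : ℂ) * Complex.I)) μ := by
      intro f hf
      refine hf.norm.mono' ?_ (Eventually.of_forall fun x => ?_)
      · refine hf.1.smul ?_
        exact (by fun_prop : Continuous fun x : E =>
          Complex.exp (((inner ℝ x ξ : ℝ) : ℂ) * Complex.I)).aestronglyMeasurable
      · rw [norm_smul, Complex.norm_exp_ofReal_mul_I, mul_one]
    have hpi : Integrable (fun x => (p x).toReal) μ := integrable_toReal_of_lintegral_ne_top hpm hpf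
    have hqi : Integrable (fun x => (q x).toReal) μ := integrable_toReal_of_lintegral_ne_top hqm hqf
    rw [← sub_eq_zero, ← integral_sub (hb _ hpi) (hb _ hqi)]
    rw [← integral_exp_eq_zero hexp hu ξ (hmom ξ)]
    refine integral_congr_ae (Eventually.of_forall fun x => ?_)
    simp only
    rw [← sub_smul, Complex.real_smul]
    congr 2
    simp only [hp, hq, ENNReal.toReal_ofReal']
    rcases le_total (u x) 0 with h | h
    · rw [max_eq_right h, max_eq_left (by linarith)]
      ring
    · rw [max_eq_left h, max_eq_right (by linarith)]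
      ring
  refine hui.ae_eq_zero_of_forall_setIntegral_eq_zero fun s hs _ => ?_
  have hs' : (μ.withDensity p) s = (μ.withDensity q) s := by rw [hpq]
  rw [withDensity_apply _ hs, withDensity_apply _ hs] at hs'
  rw [integral_eq_lintegral_pos_part_sub_lintegral_neg_part hui.integrableOn]
  rw [show (∫⁻ a in s, ENNReal.ofReal (u a) ∂μ) = ∫⁻ a in s, ENNReal.ofReal (-u a) ∂μ from hs']
  simp

end Vale.Agent.P218.H787
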